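import Vale.Agent.P245.QC.Iface

/-! P245, QC rows: the functional form of the isoperimetric inequality (helper806) -/

open MeasureTheory Set Filter Topology
open scoped ENNReal ContDiff

namespace Vale.Agent.P245.QC.H806

variable {n : ℕ}

/-- supremum over the closed ball of radius `r` -/
noncomputable def Q (f : EuclideanSpace ℝ (Fin n) → ℝ) (r : ℝ) (x : EuclideanSpace ℝ (Fin n)) : ℝ :=
  sSup ((fun z => f (x + z)) '' Metric.closedBall 0 r)

lemma Q_cont {f : EuclideanSpace ℝ (Fin n) → ℝ} (hf : Continuous f) (r : ℝ) :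
    Continuous (Q f r) := by
  have h : Continuous (↿(fun x z : EuclideanSpace ℝ (Fin n) => f (x + z))) := by
    have : Continuous (fun p : EuclideanSpace ℝ (Fin n) × EuclideanSpace ℝ (Fin n) =>
      f (p.1 + p.2)) := by fun_prop
    exact this
  exact (isCompact_closedBall (0 : EuclideanSpace ℝ (Fin n)) r).continuous_sSup h

lemma Q_att {f : EuclideanSpace ℝ (Fin n) → ℝ} (hf : Continuous f) {r : ℝ} (hr : 0 ≤ r)
    (x : EuclideanSpace ℝ (Fin n)) : ∃ z : EuclideanSpace ℝ (Fin n), ‖z‖ ≤ r ∧ f (x + z) = Q f r x := by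
  have hc : ContinuousOn (fun z => f (x + z)) (Metric.closedBall 0 r) :=
    (hf.comp (continuous_const.add continuous_id)).continuousOn
  obtain ⟨z, hz, h⟩ := (isCompact_closedBall (0 : EuclideanSpace ℝ (Fin n)) r).exists_sSup_image_eq
    ⟨0, by simpa using hr⟩ hc
  exact ⟨z, by simpa using hz, h.symm⟩

lemma le_Q {f : EuclideanSpace ℝ (Fin n) → ℝ} (hf : Continuous f) {r : ℝ}
    (x z : EuclideanSpace ℝ (Fin n)) (hz : ‖z‖ ≤ r) : f (x + z) ≤ Q f r x := by
  have hc : ContinuousOn (fun z => f (x + z)) (Metric.closedBall 0 r) :=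
    (hf.comp (continuous_const.add continuous_id)).continuousOn
  exact le_csSup ((isCompact_closedBall (0 : EuclideanSpace ℝ (Fin n)) r).bddAbove_image hc)
    ⟨z, by simpa using hz, rfl⟩

lemma le_Q_self {f : EuclideanSpace ℝ (Fin n) → ℝ} (hf : Continuous f) {r : ℝ} (hr : 0 ≤ r)
    (x : EuclideanSpace ℝ (Fin n)) : f x ≤ Q f r x := by
  simpa using le_Q hf x 0 (by simpa using hr)

lemma cthick_sub {f : EuclideanSpace ℝ (Fin n) → ℝ} (hf : Continuous f)
    (hfc : HasCompactSupport f) {r : ℝ} (hr : 0 ≤ r) {t : ℝ} (ht : 0 < t) :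
    Metric.cthickening r {x | t ≤ f x} ⊆ {x | t ≤ Q f r x} := by
  have hcl : IsClosed {x | t ≤ f x} := isClosed_le continuous_const hf
  have hK : IsCompact {x | t ≤ f x} := by
    refine hfc.isCompact.of_isClosed_subset hcl ?_
    intro x hx
    refine subset_tsupport f ?_
    simp only [Function.mem_support]
    have h1 : t ≤ f x := hx
    exact (lt_of_lt_of_le ht h1).ne'
  rw [hK.cthickening_eq_biUnion_closedBall hr]
  intro x hx
  simp only [mem_iUnion, Metric.mem_closedBall, exists_prop] at hx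
  obtain ⟨a, ha, hxa⟩ := hx
  have h1 : f (x + (a - x)) ≤ Q f r x := le_Q hf x (a - x) (by
    rw [← dist_eq_norm, dist_comm]; exact hxa)
  have h2 : x + (a - x) = a := by abel
  rw [h2] at h1
  exact le_trans ha h1

/-- integrability of a primitive composed with a bounded continuous function -/
lemma prim_int (μ : Measure (EuclideanSpace ℝ (Fin n))) [IsProbabilityMeasure μ] {g : ℝ → ℝ}
    (hg : Continuous g) (hg0 : ∀ t, 0 ≤ g t) {h : EuclideanSpace ℝ (Fin n) → ℝ}
    (hh : Continuous h) (h0 : ∀ x, 0 ≤ h x) {B : ℝ} (hB : ∀ x, h x ≤ B) :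
    Integrable (fun x => ∫ t in (0 : ℝ)..(h x), g t) μ := by
  have hc : Continuous (fun u : ℝ => ∫ t in (0 : ℝ)..u, g t) :=
    intervalIntegral.continuous_primitive (fun a b => hg.intervalIntegrable a b) 0
  refine Integrable.of_bound (hc.comp hh).aestronglyMeasurable (∫ t in (0 : ℝ)..B, g t)
    (Eventually.of_forall fun x => ?_)
  have h1 : 0 ≤ ∫ t in (0 : ℝ)..(h x), g t :=
    intervalIntegral.integral_nonneg (h0 x) (fun t _ => hg0 t)
  have h2 : 0 ≤ ∫ t in (h x)..B, g t :=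
    intervalIntegral.integral_nonneg (hB x) (fun t _ => hg0 t)
  have h3 := intervalIntegral.integral_add_adjacent_intervals (hg.intervalIntegrable 0 (h x))
    (hg.intervalIntegrable (h x) B) (μ := volume)
  rw [Real.norm_eq_abs, abs_of_nonneg h1]
  linarith

lemma layer (μ : Measure (EuclideanSpace ℝ (Fin n))) [IsProbabilityMeasure μ] {κ r₀ : ℝ}
    (hκ : 0 < κ) (hI : Iso μ κ r₀) {f : EuclideanSpace ℝ (Fin n) → ℝ}
    (hf : Continuous f) (hfc : HasCompactSupport f) (hf0 : ∀ x, 0 ≤ f x)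
    (hq : QuasiconcaveOn ℝ univ f) {M : ℝ}
    (hp : ∀ t, M < t → μ.real {x | t ≤ f x} ≤ 1 / 2) {γ w : ℝ → ℝ} (hγ : Continuous γ)
    (hw : Continuous w) (hγ0 : ∀ t, 0 ≤ γ t) (hw0 : ∀ t, 0 ≤ w t) (hwM : ∀ t ≤ M, w t = 0)
    (hwγ : ∀ t, M < t → 0 < μ.real {x | t ≤ f x} →
      w t ≤ γ t * √(Real.log (1 / μ.real {x | t ≤ f x}))) {B : ℝ} (hB : ∀ x, f x ≤ B) {r : ℝ}
    (hr : 0 ≤ r) (hr₀ : r ≤ r₀) :
    (r / κ) * ∫ x, (∫ t in (0 : ℝ)..(f x), w t) ∂μ + ∫ x, (∫ t in (0 : ℝ)..(f x), γ t) ∂μ ≤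
      ∫ x, (∫ t in (0 : ℝ)..(Q f r x), γ t) ∂μ := by
  have hQc := Q_cont hf r
  have hQB : ∀ x, Q f r x ≤ B := fun x => by
    obtain ⟨z, -, hz⟩ := Q_att hf hr x
    rw [← hz]; exact hB _
  have hQ0 : ∀ x, 0 ≤ Q f r x := fun x => (hf0 x).trans (le_Q_self hf hr x)
  have lc : ∀ (h : EuclideanSpace ℝ (Fin n) → ℝ) (g : ℝ → ℝ), Continuous h → (∀ x, 0 ≤ h x) →
      Continuous g → (∀ t, 0 ≤ g t) → (∀ x, h x ≤ B) →
      ENNReal.ofReal (∫ x, (∫ t in (0 : ℝ)..(h x), g t) ∂μ) =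
        ∫⁻ t in Ioi 0, μ {a | t ≤ h a} * ENNReal.ofReal (g t) := by
    intro h g hh h0 hg hg0 hhB
    rw [ofReal_integral_eq_lintegral_ofReal (prim_int μ hg hg0 hh h0 hhB)
      (Eventually.of_forall fun x =>
        intervalIntegral.integral_nonneg (h0 x) (fun t _ => hg0 t))]
    exact lintegral_comp_eq_lintegral_meas_le_mul μ (Eventually.of_forall h0)
      hh.measurable.aemeasurable (fun t _ => hg.intervalIntegrable 0 t)
      (Eventually.of_forall hg0)
  have e1 := lc f w hf hf0 hw hw0 hB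
  have e2 := lc f γ hf hf0 hγ hγ0 hB
  have e3 := lc (Q f r) γ hQc hQ0 hγ hγ0 hQB
  have n1 : 0 ≤ ∫ x, (∫ t in (0 : ℝ)..(f x), w t) ∂μ := integral_nonneg fun x =>
    intervalIntegral.integral_nonneg (hf0 x) (fun t _ => hw0 t)
  have n2 : 0 ≤ ∫ x, (∫ t in (0 : ℝ)..(f x), γ t) ∂μ := integral_nonneg fun x =>
    intervalIntegral.integral_nonneg (hf0 x) (fun t _ => hγ0 t)
  have n3 : 0 ≤ ∫ x, (∫ t in (0 : ℝ)..(Q f r x), γ t) ∂μ := integral_nonneg fun x =>
    intervalIntegral.integral_nonneg (hQ0 x) (fun t _ => hγ0 t)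
  have hrκ : 0 ≤ r / κ := div_nonneg hr hκ.le
  rw [← ENNReal.ofReal_le_ofReal_iff n3, ENNReal.ofReal_add (mul_nonneg hrκ n1) n2,
    ENNReal.ofReal_mul hrκ, e1, e2, e3]
  have mf : ∀ (h : EuclideanSpace ℝ (Fin n) → ℝ), Measurable (fun t : ℝ => μ {a | t ≤ h a}) :=
    fun h => (Antitone.measurable fun a b hab => measure_mono fun x hx => le_trans hab hx)
  have m1 : Measurable (fun t : ℝ => μ {a | t ≤ f a} * ENNReal.ofReal (w t)) :=
    (mf f).mul hw.measurable.ennreal_ofReal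
  have m2 : Measurable (fun t : ℝ => μ {a | t ≤ f a} * ENNReal.ofReal (γ t)) :=
    (mf f).mul hγ.measurable.ennreal_ofReal
  rw [← lintegral_const_mul _ m1, ← lintegral_add_right _ m2]
  refine setLIntegral_mono' measurableSet_Ioi fun t ht => ?_
  have ht0 : (0 : ℝ) < t := ht
  rw [← ofReal_measureReal (μ := μ) (s := {a | t ≤ f a}),
    ← ofReal_measureReal (μ := μ) (s := {a | t ≤ Q f r a}),
    ← ENNReal.ofReal_mul measureReal_nonneg, ← ENNReal.ofReal_mul measureReal_nonneg,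
    ← ENNReal.ofReal_mul measureReal_nonneg, ← ENNReal.ofReal_mul hrκ,
    ← ENNReal.ofReal_add (mul_nonneg hrκ (mul_nonneg measureReal_nonneg (hw0 t)))
      (mul_nonneg measureReal_nonneg (hγ0 t))]
  refine ENNReal.ofReal_le_ofReal ?_
  have hmono : μ.real {a | t ≤ f a} ≤ μ.real {a | t ≤ Q f r a} :=
    measureReal_mono fun x hx => le_trans hx (le_Q_self hf hr x)
  rcases le_or_gt t M with htM | htM
  · rw [hwM t htM, mul_zero, mul_zero, zero_add]
    exact mul_le_mul_of_nonneg_right hmono (hγ0 t)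
  rcases (measureReal_nonneg (μ := μ) (s := {a | t ≤ f a})).eq_or_lt with h0 | h0
  · rw [← h0]
    simp only [zero_mul, mul_zero, add_zero]
    exact mul_nonneg measureReal_nonneg (hγ0 t)
  have hconv : Convex ℝ {x | t ≤ f x} := by
    have := hq t
    simpa using this
  have hcl : IsClosed {x | t ≤ f x} := isClosed_le continuous_const hf
  have hi := hI _ hconv hcl h0 (hp t htM) r hr hr₀
  have hsub : μ.real (Metric.cthickening r {x | t ≤ f x}) ≤ μ.real {a | t ≤ Q f r a} :=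
    measureReal_mono (cthick_sub hf hfc hr ht0)
  have hwt := hwγ t htM h0
  set p := μ.real {x | t ≤ f x} with hpdef
  set s := √(Real.log (1 / p)) with hs
  have h1 : r / κ * (p * w t) ≤ r / κ * (p * (γ t * s)) :=
    mul_le_mul_of_nonneg_left (mul_le_mul_of_nonneg_left hwt h0.le) hrκ
  have h2 : p * (1 + r * s / κ) * γ t ≤ μ.real {a | t ≤ Q f r a} * γ t :=
    mul_le_mul_of_nonneg_right (hi.trans hsub) (hγ0 t)
  have h3 : p * (1 + r * s / κ) * γ t = r / κ * (p * (γ t * s)) + p * γ t := by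
    field_simp
    ring
  linarith

/-- **Row SUP.** -/
theorem sup : StSup := by
  intro n μ _ κ r₀ hκ hr₀ hI f hfs hfc hf0 hq M hM hp γ w hγ hw hγ0 hw0 hwM hwγ
  have hf : Continuous f := hfs.continuous
  have hfd : Differentiable ℝ f := hfs.differentiable (by simp)
  have hDc : Continuous (fderiv ℝ f) := hfs.continuous_fderiv (by simp)
  have hDs : HasCompactSupport (fderiv ℝ f) := hfc.fderiv ℝ
  have hgn : ∀ x, ‖gradient f x‖ = ‖fderiv ℝ f x‖ := fun x => by
    simp [gradient]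
  obtain ⟨B, hB⟩ : ∃ B, ∀ x, f x ≤ B := by
    obtain ⟨C, hC⟩ := hfc.exists_bound_of_continuous hf
    exact ⟨C, fun x => (le_abs_self _).trans (hC x)⟩
  obtain ⟨D, hD⟩ := hDs.exists_bound_of_continuous hDc
  simp only [hgn]
  have hucD : UniformContinuous (fderiv ℝ f) := hDs.uniformContinuous_of_continuous hDc
  have hucf : UniformContinuous f := hfc.uniformContinuous_of_continuous hf
  have hucγ : UniformContinuousOn γ (Icc 0 B) :=
    isCompact_Icc.uniformContinuousOn_of_continuous hγ.continuousOn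
  have hintD : Integrable (fun x => ‖fderiv ℝ f x‖) μ :=
    Integrable.of_bound hDc.norm.aestronglyMeasurable D
      (Eventually.of_forall fun x => by simpa using hD x)
  obtain ⟨Cγ, hCγ⟩ : ∃ C, ∀ t ∈ Icc 0 B, γ t ≤ C := by
    obtain ⟨C, hC⟩ := (isCompact_Icc (a := (0 : ℝ)) (b := B)).bddAbove_image hγ.continuousOn
    exact ⟨C, fun t ht => hC ⟨t, ht, rfl⟩⟩
  have hintγ : Integrable (fun x => γ (f x)) μ :=
    Integrable.of_bound (hγ.comp hf).aestronglyMeasurable Cγ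
      (Eventually.of_forall fun x => by
        rw [Real.norm_eq_abs, abs_of_nonneg (hγ0 _)]; exact hCγ _ ⟨hf0 x, hB x⟩)
  have hintγD : Integrable (fun x => γ (f x) * ‖fderiv ℝ f x‖) μ :=
    Integrable.of_bound ((hγ.comp hf).mul hDc.norm).aestronglyMeasurable (Cγ * D)
      (Eventually.of_forall fun x => by
        rw [Real.norm_eq_abs, abs_of_nonneg (mul_nonneg (hγ0 _) (norm_nonneg _))]
        exact mul_le_mul (hCγ _ ⟨hf0 x, hB x⟩) (hD x) (norm_nonneg _)
          ((hγ0 _).trans (hCγ _ ⟨hf0 x, hB x⟩)))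
  -- the main estimate for each `ε`
  have main : ∀ ε : ℝ, 0 < ε → ∫ x, (∫ t in (0 : ℝ)..(f x), w t) ∂μ ≤
      κ * ((∫ x, γ (f x) * ‖fderiv ℝ f x‖ ∂μ) +
        ε * ((∫ x, γ (f x) ∂μ) + ∫ x, ‖fderiv ℝ f x‖ ∂μ) + ε ^ 2) := by
    intro ε hε
    obtain ⟨δγ, hδγ, hγu⟩ := Metric.uniformContinuousOn_iff.1 hucγ ε hε
    obtain ⟨δ₁, hδ₁, hfu⟩ := Metric.uniformContinuous_iff.1 hucf δγ hδγ
    obtain ⟨δ₂, hδ₂, hDu⟩ := Metric.uniformContinuous_iff.1 hucD ε hε
    set r : ℝ := min r₀ (min (δ₁ / 2) (δ₂ / 2)) with hrdef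
    have hr : 0 < r := lt_min hr₀ (lt_min (by linarith) (by linarith))
    have hrr₀ : r ≤ r₀ := min_le_left _ _
    have hr1 : r < δ₁ := lt_of_le_of_lt ((min_le_right _ _).trans (min_le_left _ _)) (by linarith)
    have hr2 : r < δ₂ := lt_of_le_of_lt ((min_le_right _ _).trans (min_le_right _ _)) (by linarith)
    have hL := layer μ hκ hI hf hfc hf0 hq hp hγ hw hγ0 hw0 hwM hwγ hB hr.le hrr₀
    have hQB : ∀ x, Q f r x ≤ B := fun x => by
      obtain ⟨z, -, hz⟩ := Q_att hf hr.le x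
      rw [← hz]; exact hB _
    have hQ0 : ∀ x, 0 ≤ Q f r x := fun x => (hf0 x).trans (le_Q_self hf hr.le x)
    have hpt : ∀ x, (∫ t in (0 : ℝ)..(Q f r x), γ t) ≤ (∫ t in (0 : ℝ)..(f x), γ t) +
        r * ((‖fderiv ℝ f x‖ + ε) * (γ (f x) + ε)) := by
      intro x
      obtain ⟨z, hz, hzQ⟩ := Q_att hf hr.le x
      have hle := le_Q_self hf hr.le x
      have hd : Q f r x - f x ≤ (‖fderiv ℝ f x‖ + ε) * r := by
        have h1 : ‖f (x + z) - f x‖ ≤ (‖fderiv ℝ f x‖ + ε) * ‖(x + z) - x‖ := by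
          refine Convex.norm_image_sub_le_of_norm_fderiv_le (𝕜 := ℝ)
            (s := Metric.closedBall x r) (fun y _ => hfd y) (fun y hy => ?_)
            (convex_closedBall x r) (Metric.mem_closedBall_self hr.le) (by simpa using hz)
          have h2 : dist (fderiv ℝ f y) (fderiv ℝ f x) < ε :=
            hDu (lt_of_le_of_lt (Metric.mem_closedBall.1 hy) hr2)
          rw [dist_eq_norm] at h2
          have h3 : ‖fderiv ℝ f y‖ ≤ ‖fderiv ℝ f x‖ + ‖fderiv ℝ f y - fderiv ℝ f x‖ := by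
            have := norm_add_le (fderiv ℝ f x) (fderiv ℝ f y - fderiv ℝ f x)
            simpa using this
          linarith
        rw [add_sub_cancel_left] at h1
        rw [← hzQ]
        refine (le_abs_self _).trans (h1.trans ?_)
        exact mul_le_mul_of_nonneg_left hz (by positivity)
      have hsmall : Q f r x - f x < δγ := by
        have h1 : dist (f (x + z)) (f x) < δγ := hfu (by
          rw [dist_eq_norm, add_sub_cancel_left]; exact lt_of_le_of_lt hz hr1)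
        rw [← hzQ]
        exact lt_of_le_of_lt (le_abs_self _) h1
      have hadj := intervalIntegral.integral_add_adjacent_intervals
        (hγ.intervalIntegrable 0 (f x)) (hγ.intervalIntegrable (f x) (Q f r x)) (μ := volume)
      have hmono : ∫ t in (f x)..(Q f r x), γ t ≤ ∫ t in (f x)..(Q f r x), (γ (f x) + ε) := by
        refine intervalIntegral.integral_mono_on hle (hγ.intervalIntegrable _ _)
          intervalIntegrable_const fun t ht => ?_
        have h1 : dist (γ t) (γ (f x)) < ε := by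
          refine hγu t ⟨(hf0 x).trans ht.1, ht.2.trans (hQB x)⟩ (f x) ⟨hf0 x, hB x⟩ ?_
          rw [Real.dist_eq, abs_of_nonneg (by linarith [ht.1])]
          linarith [ht.2]
        have := (le_abs_self _).trans h1.le
        linarith
      rw [intervalIntegral.integral_const, smul_eq_mul] at hmono
      have h4 : (Q f r x - f x) * (γ (f x) + ε) ≤ (‖fderiv ℝ f x‖ + ε) * r * (γ (f x) + ε) :=
        mul_le_mul_of_nonneg_right hd (by have := hγ0 (f x); positivity)
      nlinarith [hadj, hmono, h4]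
    have hint1 : Integrable (fun x => r * ((‖fderiv ℝ f x‖ + ε) * (γ (f x) + ε))) μ := by
      have : (fun x => r * ((‖fderiv ℝ f x‖ + ε) * (γ (f x) + ε))) = fun x =>
          r * (γ (f x) * ‖fderiv ℝ f x‖ + ε * (γ (f x) + ‖fderiv ℝ f x‖) + ε ^ 2) := by
        funext x; ring
      rw [this]
      exact ((hintγD.add ((hintγ.add hintD).const_mul ε)).add (integrable_const _)).const_mul r
    have hval : ∫ x, r * ((‖fderiv ℝ f x‖ + ε) * (γ (f x) + ε)) ∂μ =
        r * ((∫ x, γ (f x) * ‖fderiv ℝ f x‖ ∂μ) +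
        ε * ((∫ x, γ (f x) ∂μ) + ∫ x, ‖fderiv ℝ f x‖ ∂μ) + ε ^ 2) := by
      have : (fun x => r * ((‖fderiv ℝ f x‖ + ε) * (γ (f x) + ε))) = fun x =>
          r * (γ (f x) * ‖fderiv ℝ f x‖ + ε * (γ (f x) + ‖fderiv ℝ f x‖) + ε ^ 2) := by
        funext x; ring
      have i1 : Integrable (fun x => ε * (γ (f x) + ‖fderiv ℝ f x‖)) μ :=
        (hintγ.add hintD).const_mul ε
      have i2 : Integrable (fun x => γ (f x) * ‖fderiv ℝ f x‖ + ε * (γ (f x) + ‖fderiv ℝ f x‖)) μ :=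
        hintγD.add i1
      rw [this, integral_const_mul, integral_add i2 (integrable_const _), integral_add hintγD i1,
        integral_const_mul, integral_add hintγ hintD]
      simp
    have hup : ∫ x, (∫ t in (0 : ℝ)..(Q f r x), γ t) ∂μ ≤
        (∫ x, (∫ t in (0 : ℝ)..(f x), γ t) ∂μ) +
        ∫ x, r * ((‖fderiv ℝ f x‖ + ε) * (γ (f x) + ε)) ∂μ := by
      rw [← integral_add (prim_int μ hγ hγ0 hf hf0 hB) hint1]
      exact integral_mono (prim_int μ hγ hγ0 (Q_cont hf r) hQ0 hQB)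
        ((prim_int μ hγ hγ0 hf hf0 hB).add hint1) hpt
    rw [hval] at hup
    have h5 : (r / κ) * ∫ x, (∫ t in (0 : ℝ)..(f x), w t) ∂μ ≤
        r * ((∫ x, γ (f x) * ‖fderiv ℝ f x‖ ∂μ) +
        ε * ((∫ x, γ (f x) ∂μ) + ∫ x, ‖fderiv ℝ f x‖ ∂μ) + ε ^ 2) := by linarith
    have h6 : (r / κ) * ∫ x, (∫ t in (0 : ℝ)..(f x), w t) ∂μ =
        r * ((∫ x, (∫ t in (0 : ℝ)..(f x), w t) ∂μ) / κ) := by ring
    rw [h6] at h5
    have h7 := le_of_mul_le_mul_left h5 hr
    rwa [div_le_iff₀' hκ] at h7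
  have hlim : Tendsto (fun ε : ℝ => κ * ((∫ x, γ (f x) * ‖fderiv ℝ f x‖ ∂μ) +
        ε * ((∫ x, γ (f x) ∂μ) + ∫ x, ‖fderiv ℝ f x‖ ∂μ) + ε ^ 2)) (𝓝[>] 0)
      (𝓝 (κ * ∫ x, γ (f x) * ‖fderiv ℝ f x‖ ∂μ)) := by
    have hc : Continuous (fun ε : ℝ => κ * ((∫ x, γ (f x) * ‖fderiv ℝ f x‖ ∂μ) +
        ε * ((∫ x, γ (f x) ∂μ) + ∫ x, ‖fderiv ℝ f x‖ ∂μ) + ε ^ 2)) := by fun_prop
    have h := (hc.tendsto 0).mono_left (nhdsWithin_le_nhds (s := Ioi (0 : ℝ)))
    simpa using h
  refine ge_of_tendsto hlim ?_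
  filter_upwards [self_mem_nhdsWithin] with ε hε
  exact main ε hε

end Vale.Agent.P245.QC.H806
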